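import Mathlib

/-!
P245 (helper865): resolvents of the closure of a symmetric nonnegative operator with dense range of
`1 + N` (abstract real Hilbert space).
-/

set_option linter.all false

open Filter Topology

namespace Vale.Agent.P245.H865

variable {H : Type*} [NormedAddCommGroup H] [InnerProductSpace ℝ H] [CompleteSpace H]
  {T : Type*} [AddCommGroup T] [Module ℝ T]

/-- a symmetric nonnegative operator `N` on a space `T` of test vectors (embedded by `i`), with
`1 + N` of dense range -/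
structure SymOp (i N : T →ₗ[ℝ] H) : Prop where
  symm : ∀ f g, inner ℝ (N f) (i g) = inner ℝ (i f) (N g)
  pos : ∀ f, 0 ≤ inner ℝ (N f) (i f)
  tot : ∀ h : H, (∀ f, inner ℝ h (i f + N f) = 0) → h = 0
  dns : ∀ h : H, (∀ f, inner ℝ h (i f) = 0) → h = 0

/-- the closure of the graph -/
noncomputable def gr (i N : T →ₗ[ℝ] H) : Submodule ℝ (H × H) :=
  (LinearMap.range (i.prod N)).topologicalClosure

variable {i N : T →ₗ[ℝ] H}

theorem gr_closed : IsClosed (gr i N : Set (H × H)) := Submodule.isClosed_topologicalClosure _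

theorem mem_gr (f : T) : (i f, N f) ∈ gr i N :=
  Submodule.le_topologicalClosure _ ⟨f, rfl⟩

/-- a pair of the graph is a limit of test vectors -/
theorem gr_seq {z y : H} (h : (z, y) ∈ gr i N) :
    ∃ f : ℕ → T, Tendsto (fun m => i (f m)) atTop (𝓝 z) ∧ Tendsto (fun m => N (f m)) atTop (𝓝 y) := by
  have h1 : (z, y) ∈ closure ((LinearMap.range (i.prod N) : Submodule ℝ (H × H)) : Set (H × H)) := h
  obtain ⟨u, hu, hl⟩ := mem_closure_iff_seq_limit.1 h1
  have h2 : ∀ m, ∃ f : T, (i.prod N) f = u m := fun m => hu m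
  choose f hf using h2
  refine ⟨f, ?_, ?_⟩
  · have := (continuous_fst.tendsto (z, y)).comp hl
    refine this.congr fun m => ?_
    simp only [Function.comp]
    rw [← hf m]; rfl
  · have := (continuous_snd.tendsto (z, y)).comp hl
    refine this.congr fun m => ?_
    simp only [Function.comp]
    rw [← hf m]; rfl

theorem seq_gr {z y : H} {f : ℕ → T} (h1 : Tendsto (fun m => i (f m)) atTop (𝓝 z))
    (h2 : Tendsto (fun m => N (f m)) atTop (𝓝 y)) : (z, y) ∈ gr i N := by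
  refine gr_closed.mem_of_tendsto (h1.prodMk_nhds h2) (Eventually.of_forall fun m => mem_gr (f m))

/-- an identity of continuous functions passes from the test vectors to the graph -/
theorem gr_induction₂ (P : H → H → H → H → Prop)
    (hc : IsClosed {q : (H × H) × (H × H) | P q.1.1 q.1.2 q.2.1 q.2.2})
    (h0 : ∀ f g, P (i f) (N f) (i g) (N g)) {z y z' y' : H} (h : (z, y) ∈ gr i N)
    (h' : (z', y') ∈ gr i N) : P z y z' y' := by
  obtain ⟨f, hf1, hf2⟩ := gr_seq h
  obtain ⟨g, hg1, hg2⟩ := gr_seq h'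
  exact hc.mem_of_tendsto ((hf1.prodMk_nhds hf2).prodMk_nhds (hg1.prodMk_nhds hg2))
    (Eventually.of_forall fun m => h0 (f m) (g m))

theorem gr_induction₁ (P : H → H → Prop) (hc : IsClosed {q : H × H | P q.1 q.2})
    (h0 : ∀ f, P (i f) (N f)) {z y : H} (h : (z, y) ∈ gr i N) : P z y := by
  obtain ⟨f, hf1, hf2⟩ := gr_seq h
  exact hc.mem_of_tendsto (hf1.prodMk_nhds hf2) (Eventually.of_forall fun m => h0 (f m))

namespace SymOp

variable (hS : SymOp i N)
include hS

theorem symm' {z y z' y' : H} (h : (z, y) ∈ gr i N) (h' : (z', y') ∈ gr i N) :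
    inner ℝ y z' = inner ℝ z y' :=
  gr_induction₂ (fun z y z' y' => inner ℝ y z' = inner ℝ z y')
    (isClosed_eq (by fun_prop) (by fun_prop)) (fun f g => hS.symm f g) h h'

theorem pos' {z y : H} (h : (z, y) ∈ gr i N) : 0 ≤ inner ℝ y z :=
  gr_induction₁ (fun z y => 0 ≤ inner ℝ y z)
    (isClosed_le (by fun_prop) (by fun_prop)) (fun f => hS.pos f) h

theorem norm_le {s : ℝ} (hs : 0 < s) {z y : H} (h : (z, y) ∈ gr i N) :
    ‖z‖ ^ 2 + s ^ 2 * ‖y‖ ^ 2 ≤ ‖z + s • y‖ ^ 2 := by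
  rw [norm_add_sq_real, norm_smul, Real.norm_of_nonneg hs.le, real_inner_smul_right, mul_pow]
  have := hS.pos' h
  rw [real_inner_comm] at this
  nlinarith [mul_nonneg hs.le this]

theorem uniq {s : ℝ} (hs : 0 < s) {z y z' y' : H} (h : (z, y) ∈ gr i N) (h' : (z', y') ∈ gr i N)
    (e : z + s • y = z' + s • y') : z = z' ∧ y = y' := by
  have h1 : (z - z', y - y') ∈ gr i N := (gr i N).sub_mem h h'
  have h2 := hS.norm_le hs h1
  have h3 : z - z' + s • (y - y') = 0 := by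
    rw [smul_sub]
    have : z - z' + (s • y - s • y') = (z + s • y) - (z' + s • y') := by abel
    rw [this, e, sub_self]
  rw [h3, norm_zero] at h2
  have q1 : 0 ≤ ‖z - z'‖ ^ 2 := by positivity
  have q2 : 0 ≤ ‖y - y'‖ ^ 2 := by positivity
  have q3 : 0 < s ^ 2 := by positivity
  have q4 : 0 ≤ s ^ 2 * ‖y - y'‖ ^ 2 := by positivity
  have h2' : ‖z - z'‖ ^ 2 + s ^ 2 * ‖y - y'‖ ^ 2 ≤ 0 := by
    have e0 : (0 : ℝ) ^ 2 = 0 := by norm_num
    rwa [e0] at h2
  have h4 : ‖z - z'‖ ^ 2 = 0 := le_antisymm (by linarith) q1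
  have h5 : ‖y - y'‖ ^ 2 = 0 := by
    have h6 : s ^ 2 * ‖y - y'‖ ^ 2 = 0 := le_antisymm (by linarith) q4
    rcases mul_eq_zero.1 h6 with h7 | h7
    · exact absurd h7 q3.ne'
    · exact h7
  have h8 : ‖z - z'‖ = 0 := by
    rcases pow_eq_zero_iff (two_ne_zero) |>.1 h4 with h9
    exact h9
  have h9 : ‖y - y'‖ = 0 := by
    rcases pow_eq_zero_iff (two_ne_zero) |>.1 h5 with h9
    exact h9
  exact ⟨sub_eq_zero.1 (norm_eq_zero.1 h8), sub_eq_zero.1 (norm_eq_zero.1 h9)⟩

/-- if `1 + sN` has dense range then `1 + sA` is onto -/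
theorem onto_of_dense {s : ℝ} (hs : 0 < s)
    (hd : ∀ h : H, (∀ z y, (z, y) ∈ gr i N → inner ℝ h (z + s • y) = 0) → h = 0) (h : H) :
    ∃ z y, (z, y) ∈ gr i N ∧ z + s • y = h := by
  haveI : CompleteSpace (gr i N) := gr_closed.completeSpace_coe
  set Φ : (gr i N) →L[ℝ] H :=
    ((ContinuousLinearMap.fst ℝ H H) + s • (ContinuousLinearMap.snd ℝ H H)).comp (gr i N).subtypeL with hΦ
  have hΦa : ∀ q : gr i N, Φ q = q.1.1 + s • q.1.2 := fun q => rfl
  have hb : ∀ q : gr i N, ‖q‖ ≤ (1 + s⁻¹) * ‖Φ q‖ := by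
    intro q
    have h1 := hS.norm_le hs (z := q.1.1) (y := q.1.2) q.2
    rw [← hΦa q] at h1
    have h2 : ‖q.1.1‖ ≤ ‖Φ q‖ := by
      refine (sq_le_sq₀ (norm_nonneg _) (norm_nonneg _)).1 ?_
      nlinarith [mul_nonneg (sq_nonneg s) (sq_nonneg ‖q.1.2‖)]
    have h3 : s * ‖q.1.2‖ ≤ ‖Φ q‖ := by
      refine (sq_le_sq₀ (by positivity) (norm_nonneg _)).1 ?_
      nlinarith [sq_nonneg ‖q.1.1‖]
    have h4 : ‖q.1.2‖ ≤ s⁻¹ * ‖Φ q‖ := by
      rw [← div_eq_inv_mul, le_div_iff₀ hs]; linarith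
    have h5 : ‖q‖ = max ‖q.1.1‖ ‖q.1.2‖ := rfl
    rw [h5]
    have h6 : 0 ≤ s⁻¹ * ‖Φ q‖ := by positivity
    refine max_le ?_ ?_
    · rw [add_mul, one_mul]; linarith
    · rw [add_mul, one_mul]; linarith [norm_nonneg (Φ q)]
  have hcl : IsClosed (Set.range Φ) := by
    have ha : AntilipschitzWith ⟨1 + s⁻¹, by positivity⟩ Φ :=
      AddMonoidHomClass.antilipschitz_of_bound Φ hb
    exact ha.isClosed_range Φ.uniformContinuous
  set K : Submodule ℝ H := LinearMap.range (Φ : (gr i N) →ₗ[ℝ] H) with hK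
  have hKc : IsClosed (K : Set H) := by
    have : (K : Set H) = Set.range Φ := by
      rw [hK]; ext x; simp
    rw [this]; exact hcl
  haveI : CompleteSpace K := hKc.completeSpace_coe
  have hKo : Kᗮ = ⊥ := by
    rw [eq_bot_iff]
    intro x hx
    rw [Submodule.mem_bot]
    refine hd x fun z y hzy => ?_
    have h1 : z + s • y ∈ K := ⟨⟨(z, y), hzy⟩, rfl⟩
    have h2 := (Submodule.mem_orthogonal K x).1 hx _ h1
    rw [real_inner_comm]; exact h2
  have hKt : K = ⊤ := Submodule.orthogonal_eq_bot_iff.1 hKo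
  have hh : h ∈ K := by rw [hKt]; trivial
  obtain ⟨q, hq⟩ := hh
  exact ⟨q.1.1, q.1.2, q.2, hq⟩

theorem onto_one (h : H) : ∃ z y, (z, y) ∈ gr i N ∧ z + y = h := by
  obtain ⟨z, y, h1, h2⟩ := hS.onto_of_dense one_pos (fun h hh => hS.tot h fun f => by
    have := hh (i f) (N f) (mem_gr f)
    rwa [one_smul] at this) h
  exact ⟨z, y, h1, by rwa [one_smul] at h2⟩

theorem onto {s : ℝ} (hs : 0 < s) (h : H) : ∃ z y, (z, y) ∈ gr i N ∧ z + s • y = h := by
  refine hS.onto_of_dense hs (fun h hh => ?_) h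
  obtain ⟨z0, y0, h0, e0⟩ := hS.onto_one (h - s⁻¹ • h)
  have h1 : ∀ z y, (z, y) ∈ gr i N → inner ℝ (h - z0) (z + y) = 0 := by
    intro z y hzy
    have e1 := hh z y hzy
    have e2 : inner ℝ h y = - (s⁻¹ * inner ℝ h z) := by
      rw [inner_add_right, real_inner_smul_right] at e1
      field_simp
      linarith
    have e3 := hS.symm' h0 hzy
    have e4 : inner ℝ (z0 + y0) z = inner ℝ (h - s⁻¹ • h) z := by rw [e0]
    rw [inner_add_left, inner_sub_left, real_inner_smul_left, e3] at e4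
    rw [inner_sub_left, inner_add_right, inner_add_right, e2]
    linarith
  have h2 : h - z0 = 0 := by
    obtain ⟨z, y, hzy, e⟩ := hS.onto_one (h - z0)
    have := h1 z y hzy
    rw [e] at this
    exact inner_self_eq_zero.1 this
  have h3 : h = z0 := sub_eq_zero.1 h2
  have h4 : y0 = - (s⁻¹ • h) := by
    have : y0 = (h - s⁻¹ • h) - z0 := by rw [← e0]; abel
    rw [this, ← h3]; abel
  have h5 := hS.pos' h0
  rw [← h3, h4, inner_neg_left, real_inner_smul_left] at h5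
  have h6 : 0 < s⁻¹ := by positivity
  have h7 : (inner ℝ h h : ℝ) ≤ 0 := by nlinarith
  have h8 : (inner ℝ h h : ℝ) = ‖h‖ ^ 2 := real_inner_self_eq_norm_sq h
  rw [h8] at h7
  have h9 : ‖h‖ ^ 2 = 0 := le_antisymm h7 (sq_nonneg _)
  have h10 : ‖h‖ = 0 := (pow_eq_zero_iff two_ne_zero).1 h9
  exact norm_eq_zero.1 h10

end SymOp

open Classical in
/-- the resolvent, as a function -/
noncomputable def Jf (i N : T →ₗ[ℝ] H) (s : ℝ) (h : H) : H :=
  if hh : ∃ z, (z, s⁻¹ • (h - z)) ∈ gr i N then hh.choose else 0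

namespace SymOp

variable (hS : SymOp i N)
include hS

theorem Jf_ex {s : ℝ} (hs : 0 < s) (h : H) : ∃ z, (z, s⁻¹ • (h - z)) ∈ gr i N := by
  obtain ⟨z, y, h1, h2⟩ := hS.onto hs h
  refine ⟨z, ?_⟩
  have : s⁻¹ • (h - z) = y := by
    rw [← h2, add_sub_cancel_left, smul_smul, inv_mul_cancel₀ hs.ne', one_smul]
  rwa [this]

theorem Jf_mem {s : ℝ} (hs : 0 < s) (h : H) : (Jf i N s h, s⁻¹ • (h - Jf i N s h)) ∈ gr i N := by
  have h1 := hS.Jf_ex hs h
  unfold Jf
  rw [dif_pos h1]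
  exact h1.choose_spec

theorem Jf_eq {s : ℝ} (hs : 0 < s) {z y : H} (h : (z, y) ∈ gr i N) : Jf i N s (z + s • y) = z := by
  have h1 := hS.Jf_mem hs (z + s • y)
  refine (hS.uniq hs h1 h ?_).1
  rw [smul_smul, mul_inv_cancel₀ hs.ne', one_smul]
  abel

theorem Jf_norm {s : ℝ} (hs : 0 < s) (h : H) : ‖Jf i N s h‖ ≤ ‖h‖ := by
  have h1 := hS.norm_le hs (hS.Jf_mem hs h)
  have h2 : Jf i N s h + s • (s⁻¹ • (h - Jf i N s h)) = h := by
    rw [smul_smul, mul_inv_cancel₀ hs.ne', one_smul]; abel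
  rw [h2] at h1
  refine (sq_le_sq₀ (norm_nonneg _) (norm_nonneg _)).1 ?_
  nlinarith [mul_nonneg (sq_nonneg s) (sq_nonneg ‖s⁻¹ • (h - Jf i N s h)‖)]

theorem Jf_add {s : ℝ} (hs : 0 < s) (x y : H) : Jf i N s (x + y) = Jf i N s x + Jf i N s y := by
  have h1 := (gr i N).add_mem (hS.Jf_mem hs x) (hS.Jf_mem hs y)
  have h2 := hS.Jf_eq hs h1
  rw [← h2]
  congr 1
  show x + y = (Jf i N s x + Jf i N s y) + s • (s⁻¹ • (x - Jf i N s x) + s⁻¹ • (y - Jf i N s y))
  rw [smul_add, smul_smul, smul_smul, mul_inv_cancel₀ hs.ne', one_smul, one_smul]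
  abel

theorem Jf_smul {s : ℝ} (hs : 0 < s) (a : ℝ) (x : H) : Jf i N s (a • x) = a • Jf i N s x := by
  have h1 := (gr i N).smul_mem a (hS.Jf_mem hs x)
  have h2 := hS.Jf_eq hs h1
  rw [← h2]
  congr 1
  show a • x = a • Jf i N s x + s • (a • (s⁻¹ • (x - Jf i N s x)))
  rw [smul_comm s a, smul_smul s, mul_inv_cancel₀ hs.ne', one_smul, smul_sub]
  abel

end SymOp

/-- **the resolvents** -/
theorem SymOp.exists_res (hS : SymOp i N) : ∃ J : ℝ → H →L[ℝ] H,
    (∀ s, 0 < s → ∀ x, (J s x, s⁻¹ • (x - J s x)) ∈ gr i N) ∧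
    (∀ s, 0 < s → ∀ z y, (z, y) ∈ gr i N → J s (z + s • y) = z) ∧
    (∀ s, 0 < s → ∀ x y, inner ℝ (J s x) y = inner ℝ x (J s y)) ∧
    (∀ s, 0 < s → ∀ x, ‖J s x‖ ^ 2 ≤ inner ℝ (J s x) x) ∧
    (∀ s, 0 < s → ∀ x, ‖J s x‖ ≤ ‖x‖) ∧
    (∀ s r, 0 < s → 0 < r → ∀ x, J r (J s x + (r / s) • (x - J s x)) = J s x) ∧
    (∀ x, Tendsto (fun s => J s x) (𝓝[>] 0) (𝓝 x)) := by
  classical
  set J : ℝ → H →L[ℝ] H := fun s => if hs : 0 < s then
    LinearMap.mkContinuous
      { toFun := Jf i N s, map_add' := hS.Jf_add hs, map_smul' := fun a x => hS.Jf_smul hs a x } 1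
      (fun x => by rw [one_mul]; exact hS.Jf_norm hs x) else 0 with hJ
  have hJa : ∀ s, 0 < s → ∀ x, J s x = Jf i N s x := by
    intro s hs x
    simp only [hJ]
    rw [dif_pos hs]
    rfl
  have p1 : ∀ s, 0 < s → ∀ x, (J s x, s⁻¹ • (x - J s x)) ∈ gr i N := fun s hs x => by
    rw [hJa s hs]; exact hS.Jf_mem hs x
  have p2 : ∀ s, 0 < s → ∀ z y, (z, y) ∈ gr i N → J s (z + s • y) = z := fun s hs z y h => by
    rw [hJa s hs]; exact hS.Jf_eq hs h
  have p5 : ∀ s, 0 < s → ∀ x, ‖J s x‖ ≤ ‖x‖ := fun s hs x => by rw [hJa s hs]; exact hS.Jf_norm hs x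
  refine ⟨J, p1, p2, fun s hs x y => ?_, fun s hs x => ?_, p5, fun s r hs hr x => ?_, fun x => ?_⟩
  · have h1 := hS.symm' (p1 s hs x) (p1 s hs y)
    rw [real_inner_smul_left, real_inner_smul_right] at h1
    have h2 := mul_left_cancel₀ (inv_ne_zero hs.ne') h1
    rw [inner_sub_left, inner_sub_right] at h2
    linarith
  · have h1 := hS.pos' (p1 s hs x)
    rw [real_inner_smul_left, inner_sub_left, real_inner_self_eq_norm_sq] at h1
    have h2 : 0 < s⁻¹ := by positivity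
    have h3 : 0 ≤ inner ℝ x (J s x) - ‖J s x‖ ^ 2 := by
      by_contra hcon
      push Not at hcon
      nlinarith
    rw [real_inner_comm]; linarith
  · have h1 := p2 r hr _ _ (p1 s hs x)
    rw [smul_smul] at h1
    rw [div_eq_mul_inv]; exact h1
  · -- dense set
    have hd : ∀ f : T, Tendsto (fun s => J s (i f)) (𝓝[>] 0) (𝓝 (i f)) := by
      intro f
      rw [tendsto_iff_norm_sub_tendsto_zero]
      have h1 : Tendsto (fun s : ℝ => s * ‖N f‖) (𝓝[>] 0) (𝓝 0) := by
        have : Tendsto (fun s : ℝ => s * ‖N f‖) (𝓝 0) (𝓝 (0 * ‖N f‖)) := tendsto_id.mul_const _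
        rw [zero_mul] at this
        exact this.mono_left nhdsWithin_le_nhds
      refine squeeze_zero' (Eventually.of_forall fun s => norm_nonneg _) ?_ h1
      filter_upwards [self_mem_nhdsWithin] with s hs
      have hs' : 0 < s := hs
      have h2 := p2 s hs' _ _ (mem_gr (i := i) (N := N) f)
      have h3 : J s (i f) - i f = - (s • J s (N f)) := by
        have h4 : J s (i f + s • N f) = J s (i f) + s • J s (N f) := by
          rw [map_add, map_smul]
        rw [h4] at h2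
        rw [← h2]
        have h5 : J s (J s (i f) + s • J s (N f)) = J s (i f) := by rw [h2]
        rw [h5]
        abel
      rw [h3, norm_neg, norm_smul, Real.norm_of_nonneg hs'.le]
      exact mul_le_mul_of_nonneg_left (p5 s hs' _) hs'.le
    have hdense : Dense ((LinearMap.range i : Submodule ℝ H) : Set H) := by
      rw [Submodule.dense_iff_topologicalClosure_eq_top]
      rw [Submodule.topologicalClosure_eq_top_iff]
      rw [eq_bot_iff]
      intro h hh
      rw [Submodule.mem_bot]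
      refine hS.dns h fun f => ?_
      rw [real_inner_comm]
      exact (Submodule.mem_orthogonal _ h).1 hh _ ⟨f, rfl⟩
    rw [Metric.tendsto_nhds]
    intro ε hε
    obtain ⟨z, hz, hzx⟩ := Metric.mem_closure_iff.1 (hdense x) (ε / 3) (by positivity)
    obtain ⟨f, rfl⟩ := hz
    have h1 := (Metric.tendsto_nhds.1 (hd f)) (ε / 3) (by positivity)
    filter_upwards [h1, self_mem_nhdsWithin] with s hs1 hs
    have hs' : 0 < s := hs
    have h2 : dist (J s x) (J s (i f)) < ε / 3 := by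
      rw [dist_eq_norm, ← map_sub]
      refine (p5 s hs' _).trans_lt ?_
      rw [← dist_eq_norm]; exact hzx
    calc dist (J s x) x ≤ dist (J s x) (J s (i f)) + dist (J s (i f)) (i f) + dist (i f) x :=
          dist_triangle4 _ _ _ _
      _ < ε / 3 + ε / 3 + ε / 3 := by
          rw [dist_comm (i f) x]
          exact add_lt_add (add_lt_add h2 hs1) hzx
      _ = ε := by ring

end Vale.Agent.P245.H865
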