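import Mathlib

/-!
P245 (helper865): multiplication by bounded functions on `L²` and matrix forms on `(L²)ⁿ`.
-/

set_option linter.all false

open MeasureTheory Filter Topology

namespace Vale.Agent.P245.H865

variable {α : Type*} [MeasurableSpace α] {ν : Measure α}

/-- multiplication by a bounded function -/
theorem exists_mul (g : α → ℝ) (hg : AEStronglyMeasurable g ν) (C : ℝ) (hC : ∀ᵐ x ∂ν, |g x| ≤ C) :
    ∃ M : Lp ℝ 2 ν →L[ℝ] Lp ℝ 2 ν, ∀ w : Lp ℝ 2 ν, (M w : α → ℝ) =ᵐ[ν] fun x => g x * w x := by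
  have hm : ∀ w : Lp ℝ 2 ν, MemLp (fun x => g x * w x) 2 ν := by
    intro w
    refine MemLp.of_le_mul (c := C) (Lp.memLp w) (hg.mul (Lp.memLp w).1) ?_
    filter_upwards [hC] with x hx
    rw [norm_mul, Real.norm_eq_abs]
    exact mul_le_mul_of_nonneg_right hx (norm_nonneg _)
  refine ⟨LinearMap.mkContinuous
    { toFun := fun w => (hm w).toLp _
      map_add' := fun u v => ?_
      map_smul' := fun r u => ?_ } C fun w => ?_, fun w => (hm w).coeFn_toLp⟩
  · rw [← MemLp.toLp_add]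
    refine MemLp.toLp_congr _ _ ?_
    filter_upwards [Lp.coeFn_add u v] with x hx
    rw [hx, Pi.add_apply, mul_add]; rfl
  · rw [RingHom.id_apply, ← MemLp.toLp_const_smul]
    refine MemLp.toLp_congr _ _ ?_
    filter_upwards [Lp.coeFn_smul r u] with x hx
    rw [hx, Pi.smul_apply, smul_eq_mul]
    simp only [Pi.smul_apply, smul_eq_mul]
    ring
  · refine Lp.norm_le_mul_norm_of_ae_le_mul ?_
    filter_upwards [(hm w).coeFn_toLp, hC] with x h1 h2
    show ‖((hm w).toLp _ : α → ℝ) x‖ ≤ _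
    rw [h1, norm_mul, Real.norm_eq_abs]
    exact mul_le_mul_of_nonneg_right h2 (norm_nonneg _)

/-- the Hilbert space `(L²)ⁿ` -/
abbrev HH (ν : Measure α) (n : ℕ) := PiLp 2 (fun _ : Fin n => Lp ℝ 2 ν)

/-- the form `∑ ∫ G_ij x_i y_j` -/
theorem exists_form {n : ℕ} (G : α → Matrix (Fin n) (Fin n) ℝ)
    (hG : ∀ i j, AEStronglyMeasurable (fun x => G x i j) ν) (C : ℝ) (hC : ∀ᵐ x ∂ν, ∀ i j, |G x i j| ≤ C) :
    ∃ B : HH ν n →L[ℝ] HH ν n →L[ℝ] ℝ, ∀ z e : HH ν n,
      B z e = ∫ x, ∑ i, ∑ j, G x i j * (z i : α → ℝ) x * (e j : α → ℝ) x ∂ν := by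
  have h1 : ∀ i j, ∃ M : Lp ℝ 2 ν →L[ℝ] Lp ℝ 2 ν, ∀ w : Lp ℝ 2 ν,
      (M w : α → ℝ) =ᵐ[ν] fun x => G x i j * w x := fun i j => by
    refine exists_mul _ (hG i j) C ?_
    filter_upwards [hC] with x hx using hx i j
  choose M hM using h1
  set b : Fin n → Fin n → HH ν n →L[ℝ] HH ν n →L[ℝ] ℝ := fun i j =>
    (((innerSL ℝ : Lp ℝ 2 ν →L[ℝ] Lp ℝ 2 ν →L[ℝ] ℝ).comp (M i j))).bilinearComp
      (PiLp.proj 2 (fun _ : Fin n => Lp ℝ 2 ν) i) (PiLp.proj 2 (fun _ : Fin n => Lp ℝ 2 ν) j) with hb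
  refine ⟨∑ i, ∑ j, b i j, fun z e => ?_⟩
  have hbij : ∀ i j, b i j z e = ∫ x, G x i j * (z i : α → ℝ) x * (e j : α → ℝ) x ∂ν := by
    intro i j
    have e1 : b i j z e = inner ℝ (M i j (z i)) (e j) := rfl
    rw [e1, L2.inner_def]
    refine integral_congr_ae ?_
    filter_upwards [hM i j (z i)] with x hx
    rw [hx]
    simp [mul_comm]
  have hint : ∀ i j, Integrable (fun x => G x i j * (z i : α → ℝ) x * (e j : α → ℝ) x) ν := by
    intro i j
    have h2 := (Lp.memLp (M i j (z i))).integrable_mul (Lp.memLp (e j))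
    refine h2.congr ?_
    filter_upwards [hM i j (z i)] with x hx
    rw [Pi.mul_apply, hx]
  have e2 : (∑ i, ∑ j, b i j) z e = ∑ i, ∑ j, b i j z e := by
    simp only [ContinuousLinearMap.sum_apply]
  rw [e2, integral_finsetSum _ fun i _ => integrable_finsetSum _ fun j _ => hint i j]
  refine Finset.sum_congr rfl fun i _ => ?_
  rw [integral_finsetSum _ fun j _ => hint i j]
  exact Finset.sum_congr rfl fun j _ => hbij i j

end Vale.Agent.P245.H865
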